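import Vale.Agent.Lib.P065.Global

/-!
# P065: halving lines of point sets with few convex layers

If a planar point set `P` with no three collinear points is exhausted by `L` rounds of onion
peeling (that is, `P` has at most `L` convex layers), then
`h(P) ≤ n / 2 + ∑_{1 ≤ j < L} (n - |P_j|) ≤ (L - 1/2) n`,
where `n = |P|` and `P_j` is what is left of `P` after `j` rounds of peeling.
-/

namespace Vale.Agent.Results.P065.ConvexLayers

open Vale.Agent.Lib.P065

lemma peel_subset (Q : Finset (ℝ × ℝ)) : peel Q ⊆ Q := by
  unfold peel
  exact Finset.sdiff_subset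

lemma not_mem_hull_of_not_mem_peel (Q : Finset (ℝ × ℝ)) (v : ℝ × ℝ) (hv : v ∈ Q)
    (hv' : v ∉ peel Q) :
    v ∉ convexHull ℝ ((Q.erase v : Finset (ℝ × ℝ)) : Set (ℝ × ℝ)) := by
  classical
  unfold peel at hv'
  simp only [Finset.mem_sdiff, not_and, not_not] at hv'
  have := hv' hv
  unfold hullVertices at this
  exact (Finset.mem_filter.1 this).2

theorem result (P : Finset (ℝ × ℝ)) (hP : NoThreeCollinear P) (L : ℕ)
    (hL : peel^[L] P = ∅) :
    2 * halvingCount P + 2 * ∑ j ∈ Finset.range L, (peel^[j] P).card ≤ (2 * L + 1) * P.card ∧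
      2 * halvingCount P + P.card ≤ 2 * L * P.card := by
  have main : 2 * halvingCount P + 2 * ∑ j ∈ Finset.range L, (peel^[j] P).card
      ≤ (2 * L + 1) * P.card := by
    refine global_bound P hP (fun j => peel^[j] P) L rfl hL ?_ ?_
    · intro j
      simp only [Function.iterate_succ_apply']
      exact peel_subset _
    · intro j v hv hv'
      simp only [Function.iterate_succ_apply'] at hv'
      exact not_mem_hull_of_not_mem_peel _ v hv hv'
  refine ⟨main, ?_⟩
  cases L with
  | zero =>
    simp only [Function.iterate_zero, id_eq] at hL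
    subst hL
    simp [halvingCount]
  | succ k =>
    rw [Finset.sum_range_succ'] at main
    simp only [Function.iterate_zero, id_eq] at main
    have h0 : 0 ≤ ∑ k ∈ Finset.range k, (peel^[k + 1] P).card := Nat.zero_le _
    have e1 : (2 * (k + 1) + 1) * P.card = 2 * (k + 1) * P.card + P.card := by ring
    rw [e1] at main
    omega

end Vale.Agent.Results.P065.ConvexLayers
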