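import Vale.Agent.Lib.P065.KSetEdge
import Vale.Agent.Lib.P065.KGlobal

/-!
# P065: `k`-sets and halving lines of point sets with few convex layers

If a planar point set `P` (`n` points, no three collinear) is exhausted by `L` rounds of onion
peeling, and `P_j` denotes what is left after `j` rounds, then for every `1 ≤ k ≤ n - 1`
`e_k(P) ≤ n + 2 ∑_{1 ≤ j < L} (n - |P_j|) ≤ (2 L - 1) n`, and `h(P)` is at most half of this.
-/

namespace Vale.Agent.Results.P065.KSetsLayers

open Vale.Agent.Lib.P065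

lemma peel_subset (Q : Finset (ℝ × ℝ)) : peel Q ⊆ Q := by
  unfold peel
  exact Finset.sdiff_subset

lemma not_mem_hull_of_not_mem_peel (Q : Finset (ℝ × ℝ)) (v : ℝ × ℝ) (hv : v ∈ Q)
    (hv' : v ∉ peel Q) :
    v ∉ convexHull ℝ ((Q.erase v : Finset (ℝ × ℝ)) : Set (ℝ × ℝ)) := by
  classical
  unfold peel at hv'
  simp only [Finset.mem_sdiff, not_and, not_not] at hv'
  have := hv' hv
  unfold hullVertices at this
  exact (Finset.mem_filter.1 this).2

theorem result (P : Finset (ℝ × ℝ)) (hP : NoThreeCollinear P) (L : ℕ)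
    (hL : peel^[L] P = ∅) :
    (∀ k : ℕ, 1 ≤ k → k < P.card →
      kSetCount P k + 2 * ∑ j ∈ Finset.range L, (peel^[j] P).card ≤ (2 * L + 1) * P.card) ∧
    2 * halvingCount P + 2 * ∑ j ∈ Finset.range L, (peel^[j] P).card ≤ (2 * L + 1) * P.card := by
  have hanti : ∀ j, peel^[j + 1] P ⊆ peel^[j] P := by
    intro j
    simp only [Function.iterate_succ_apply']
    exact peel_subset _
  have hext : ∀ j, ∀ v ∈ peel^[j] P, v ∉ peel^[j + 1] P →
      v ∉ convexHull ℝ (((peel^[j] P).erase v : Finset (ℝ × ℝ)) : Set (ℝ × ℝ)) := by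
    intro j v hv hv'
    simp only [Function.iterate_succ_apply'] at hv'
    exact not_mem_hull_of_not_mem_peel _ v hv hv'
  refine ⟨?_, global_bound P hP (fun j => peel^[j] P) L rfl hL hanti hext⟩
  intro k hk1 hkn
  have h1 := kSetCount_le P hP k hk1 hkn
  have h2 := global_bound_k P hP (k - 1) (fun j => peel^[j] P) L rfl hL hanti hext
  omega

end Vale.Agent.Results.P065.KSetsLayers
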